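import Vale.Agent.P043.Hom

/-!
# P043: the periodic tiling conjecture for product tiles

A product `A × B` tiles `G × H` if and only if `A` tiles `G` and `B` tiles `H`, and it tiles
periodically if `A` and `B` do. Sets which tile periodically are preserved by injective
homomorphisms with image of finite index. Every set `M (A₁ × ⋯ × A_d)` in `ℤ ^ d`, with finite sets
`A_i` of integers and `det M ≠ 0`, satisfies the periodic tiling conjecture.
-/

namespace Vale.Agent.Results.P043.ProductTiles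

/-- `A ⊕ F = G`: every element of `G` has a unique expression `a + f` with `a ∈ A`, `f ∈ F`. -/
def Tiling {G : Type} [AddCommGroup G] (A F : Set G) : Prop :=
  ∀ g : G, ∃! p : G × G, p.1 ∈ A ∧ p.2 ∈ F ∧ p.1 + p.2 = g

/-- `F` tiles `G` by translations. -/
def IsTile {G : Type} [AddCommGroup G] (F : Set G) : Prop := ∃ A : Set G, Tiling A F

/-- `A` is invariant under a subgroup of finite index. -/
def IsPeriodic {G : Type} [AddCommGroup G] (A : Set G) : Prop :=
  ∃ K : AddSubgroup G, K.FiniteIndex ∧ ∀ h ∈ K, ∀ a : G, a + h ∈ A ↔ a ∈ A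

/-- `F` admits a periodic tiling of `G`. -/
def TilesPeriodically {G : Type} [AddCommGroup G] (F : Set G) : Prop :=
  ∃ A : Set G, Tiling A F ∧ IsPeriodic A

/-- (1) Products: `A × B` tiles `G × H` if and only if `A` tiles `G` and `B` tiles `H`, and the
same with periodic tilings.
(2) The same for images under injective homomorphisms with range of finite index.
(3) In `ℤ ^ d`: every image under an integer matrix with nonzero determinant of a product of finite
sets of integers which tiles `ℤ ^ d` admits a periodic tiling. -/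
theorem result :
    (∀ (G H : Type) [AddCommGroup G] [AddCommGroup H] (A : Set G) (B : Set H),
      (IsTile (A ×ˢ B) ↔ IsTile A ∧ IsTile B) ∧
      ((TilesPeriodically A ∧ TilesPeriodically B) → TilesPeriodically (A ×ˢ B))) ∧
    (∀ (G H : Type) [AddCommGroup G] [AddCommGroup H] (φ : G →+ H) (F : Set G),
      Function.Injective φ →
      (IsTile (φ '' F) ↔ IsTile F) ∧
      (φ.range.FiniteIndex → TilesPeriodically F → TilesPeriodically (φ '' F))) ∧
    (∀ (d : ℕ) (M : Matrix (Fin d) (Fin d) ℤ) (A : Fin d → Set ℤ), M.det ≠ 0 →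
      (∀ i, (A i).Finite) → IsTile (M.mulVec '' Set.pi Set.univ A) →
      TilesPeriodically (M.mulVec '' Set.pi Set.univ A)) := by
  refine ⟨fun G H _ _ A B => ⟨⟨?_, ?_⟩, ?_⟩, fun G H _ _ φ F hφ => ⟨⟨?_, ?_⟩, ?_⟩, ?_⟩
  · rintro ⟨T, hT⟩
    exact ⟨⟨_, Vale.P043.prod_left hT⟩, ⟨_, Vale.P043.prod_right hT⟩⟩
  · rintro ⟨⟨S, hS⟩, ⟨T, hT⟩⟩
    exact ⟨_, Vale.P043.prod_mk hS hT⟩
  · rintro ⟨⟨S, hS, hSp⟩, ⟨T, hT, hTp⟩⟩
    exact ⟨_, Vale.P043.prod_mk hS hT, Vale.P043.prod_periodic hSp hTp⟩
  · rintro ⟨T, hT⟩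
    exact ⟨_, Vale.P043.hom_pre φ hφ hT⟩
  · rintro ⟨S, hS⟩
    exact ⟨_, Vale.P043.hom_tiles φ hφ hS⟩
  · rintro hfin ⟨S, hS, hSp⟩
    exact ⟨_, Vale.P043.hom_tiles φ hφ hS, Vale.P043.hom_periodic φ hφ hfin hSp⟩
  · rintro d M A hM hA ⟨T, hT⟩
    exact Vale.P043.image_tile M hM hA hT

end Vale.Agent.Results.P043.ProductTiles
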